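import Mathlib

/-! # P038: second neighbourhoods -/

namespace Vale.Agent.P038

open Finset

variable {V : Type}

/-- out-neighbourhood -/
def N1 (A : V → V → Prop) (v : V) : Set V := {u | A v u}

/-- vertices at directed distance exactly two -/
def N2 (A : V → V → Prop) (v : V) : Set V := {w | w ≠ v ∧ ¬ A v w ∧ ∃ u, A v u ∧ A u w}

theorem exists_min [Finite V] [Nonempty V] (A : V → V → Prop) :
    ∃ v, ∀ u, (N1 A v).ncard ≤ (N1 A u).ncard :=
  Finite.exists_min fun v => (N1 A v).ncard

theorem sub_N2 (A : V → V → Prop) (h : ∀ u v, A u v → ¬ A v u) (v u : V) (hvu : A v u) :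
    N1 A u ⊆ (N1 A u ∩ N1 A v) ∪ N2 A v := by
  intro w hw
  by_cases h1 : A v w
  · exact Or.inl ⟨hw, h1⟩
  · refine Or.inr ⟨?_, h1, u, hvu, hw⟩
    rintro rfl
    exact h _ _ hvu hw

theorem ncard_le [Finite V] (A : V → V → Prop) (h : ∀ u v, A u v → ¬ A v u) (v u : V)
    (hvu : A v u) :
    (N1 A u).ncard ≤ (N1 A u ∩ N1 A v).ncard + (N2 A v).ncard :=
  (Set.ncard_le_ncard (sub_N2 A h v u hvu) (Set.toFinite _)).trans (Set.ncard_union_le _ _)

theorem of_acyclic [Finite V] (A : V → V → Prop) (h : ∀ u v, A u v → ¬ A v u) (v : V)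
    (hmin : ∀ u, A v u → (N1 A v).ncard ≤ (N1 A u).ncard)
    (hac : ∀ u, ¬ Relation.TransGen (fun a b => A v a ∧ A v b ∧ A a b) u u) :
    (N1 A v).ncard ≤ (N2 A v).ncard := by
  classical
  rcases Set.eq_empty_or_nonempty (N1 A v) with h0 | hne
  · rw [h0]; simp
  · let R : V → V → Prop := fun a b => Relation.TransGen (fun a b => A v a ∧ A v b ∧ A a b) b a
    have hirr : Std.Irrefl R := ⟨fun a ha => hac a ha⟩
    have htr : IsTrans V R := ⟨fun a b c hab hbc => Relation.TransGen.trans hbc hab⟩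
    have hwf : WellFounded R := Finite.wellFounded_of_trans_of_irrefl R
    obtain ⟨u, hu, hmin'⟩ := hwf.has_min (N1 A v) hne
    have hempty : N1 A u ∩ N1 A v = ∅ := by
      rw [Set.eq_empty_iff_forall_notMem]
      rintro w ⟨h1, h2⟩
      exact hmin' w h2 (Relation.TransGen.single ⟨hu, h2, h1⟩)
    have h3 := ncard_le A h v u hu
    rw [hempty, Set.ncard_empty, zero_add] at h3
    exact (hmin u hu).trans h3

/-- in a `K₄`-free oriented graph some out-neighbour `u` of `v` has at most a quarter of the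
out-neighbours of `v` among its own -/
theorem exists_quarter [Fintype V] (A : V → V → Prop) (h : ∀ u v, A u v → ¬ A v u)
    (hK : (SimpleGraph.fromRel A).CliqueFree 4) (v : V) (hne : (N1 A v).Nonempty) :
    ∃ u, A v u ∧ 4 * (N1 A u ∩ N1 A v).ncard ≤ (N1 A v).ncard := by
  classical
  let S : Finset V := Finset.univ.filter (fun u => A v u)
  have hS : ∀ u, u ∈ S ↔ A v u := fun u => by simp [S]
  have hSc : (N1 A v).ncard = S.card := by
    rw [← Set.ncard_coe_finset]
    congr 1
    ext u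
    simp [S, N1]
  let H : SimpleGraph {u // u ∈ S} := (SimpleGraph.fromRel A).comap Subtype.val
  have hH : ∀ a b, H.Adj a b ↔ (SimpleGraph.fromRel A).Adj (a : V) (b : V) := fun _ _ => Iff.rfl
  have hfree : H.CliqueFree 3 := by
    intro t ht
    rw [SimpleGraph.is3Clique_iff] at ht
    obtain ⟨a, b, c, hab, hac, hbc, _⟩ := ht
    rw [hH, SimpleGraph.fromRel_adj] at hab hac hbc
    have hva := (hS _).1 a.2
    have hvb := (hS _).1 b.2
    have hvc := (hS _).1 c.2
    have hirr : ∀ x y, A x y → x ≠ y := by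
      rintro x y hxy rfl
      exact h x x hxy hxy
    have h3 : (SimpleGraph.fromRel A).IsNClique 3 {(a : V), (b : V), (c : V)} :=
      SimpleGraph.is3Clique_iff.2 ⟨a, b, c, (SimpleGraph.fromRel_adj _ _ _).2 hab,
        (SimpleGraph.fromRel_adj _ _ _).2 hac, (SimpleGraph.fromRel_adj _ _ _).2 hbc, rfl⟩
    have h4 := h3.insert (a := v) (by
      intro w hw
      simp only [Finset.mem_insert, Finset.mem_singleton] at hw
      rcases hw with rfl | rfl | rfl
      · exact (SimpleGraph.fromRel_adj _ _ _).2 ⟨hirr _ _ hva, Or.inl hva⟩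
      · exact (SimpleGraph.fromRel_adj _ _ _).2 ⟨hirr _ _ hvb, Or.inl hvb⟩
      · exact (SimpleGraph.fromRel_adj _ _ _).2 ⟨hirr _ _ hvc, Or.inl hvc⟩)
    exact hK _ h4
  have hT : 4 * H.edgeFinset.card ≤ S.card ^ 2 := by
    have h1 := SimpleGraph.CliqueFree.card_edgeFinset_le (r := 2) (G := H) hfree
    simp only [Fintype.card_coe] at h1
    have h2 : (S.card % 2).choose 2 = 0 := by
      rcases Nat.mod_two_eq_zero_or_one S.card with h3 | h3 <;> rw [h3] <;> rfl
    rw [h2] at h1
    have h4 : (S.card ^ 2 - (S.card % 2) ^ 2) * (2 - 1) / (2 * 2) ≤ S.card ^ 2 / 4 := by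
      apply Nat.div_le_div_right
      omega
    omega
  let arcs : Finset ({u // u ∈ S} × {u // u ∈ S}) :=
    Finset.univ.filter (fun p => A (p.1 : V) (p.2 : V))
  have harcs : arcs.card ≤ H.edgeFinset.card := by
    refine Finset.card_le_card_of_injOn (fun p => s(p.1, p.2)) ?_ ?_
    · intro p hp
      have hp' : A (p.1 : V) (p.2 : V) := by simpa [arcs] using hp
      have hne' : (p.1 : V) ≠ (p.2 : V) := by
        intro he
        rw [he] at hp'
        exact h _ _ hp' hp'
      rw [Finset.mem_coe, SimpleGraph.mem_edgeFinset, SimpleGraph.mem_edgeSet, hH,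
        SimpleGraph.fromRel_adj]
      exact ⟨hne', Or.inl hp'⟩
    · intro p hp q hq hpq
      have hp' : A (p.1 : V) (p.2 : V) := by simpa [arcs] using hp
      have hq' : A (q.1 : V) (q.2 : V) := by simpa [arcs] using hq
      have hpq' : s(p.1, p.2) = s(q.1, q.2) := hpq
      rw [Sym2.eq_iff] at hpq'
      rcases hpq' with ⟨h1, h2⟩ | ⟨h1, h2⟩
      · exact Prod.ext h1 h2
      · rw [h1, h2] at hp'
        exact absurd hp' (h _ _ hq')
  have hsum : arcs.card = ∑ u : {u // u ∈ S}, (N1 A u ∩ N1 A v).ncard := by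
    have h1 : arcs.card = ∑ u : {u // u ∈ S},
        (Finset.univ.filter (fun w : {u // u ∈ S} => A (u : V) (w : V))).card := by
      rw [Finset.card_filter, Fintype.sum_prod_type]
      refine Finset.sum_congr rfl fun u _ => ?_
      rw [Finset.card_filter]
    rw [h1]
    refine Finset.sum_congr rfl fun u _ => ?_
    rw [← Set.ncard_coe_finset,
      ← Set.ncard_image_of_injective _ (Subtype.val_injective (p := fun u => u ∈ S))]
    congr 1
    ext w
    simp only [Finset.coe_filter, Finset.mem_univ, true_and, Set.mem_image, Set.mem_setOf_eq,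
      Subtype.exists, exists_and_right, exists_eq_right, Set.mem_inter_iff, N1, hS]
    constructor
    · rintro ⟨h1, h2⟩; exact ⟨h2, h1⟩
    · rintro ⟨h1, h2⟩; exact ⟨h2, h1⟩
  by_contra hcon
  push Not at hcon
  have hpos : 0 < S.card := by
    obtain ⟨u, hu⟩ := hne
    exact Finset.card_pos.2 ⟨u, (hS u).2 hu⟩
  have h5 : ∀ u : {u // u ∈ S}, S.card < 4 * (N1 A u ∩ N1 A v).ncard := fun u => by
    rw [← hSc]
    exact hcon u ((hS _).1 u.2)
  have h6 : ∑ _u : {u // u ∈ S}, S.card < ∑ u : {u // u ∈ S}, 4 * (N1 A u ∩ N1 A v).ncard := by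
    apply Finset.sum_lt_sum_of_nonempty
    · rw [Finset.univ_nonempty_iff]
      obtain ⟨u, hu⟩ := hne
      exact ⟨⟨u, (hS u).2 hu⟩⟩
    · intro u _
      exact h5 u
  rw [Finset.sum_const, Finset.card_univ, Fintype.card_coe, smul_eq_mul, ← Finset.mul_sum,
    ← hsum] at h6
  nlinarith [h6, hT, harcs]

theorem quarter [Fintype V] [Nonempty V] (A : V → V → Prop) (h : ∀ u v, A u v → ¬ A v u)
    (hK : (SimpleGraph.fromRel A).CliqueFree 4) :
    ∃ v, 3 * (N1 A v).ncard ≤ 4 * (N2 A v).ncard := by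
  obtain ⟨v, hv⟩ := exists_min A
  refine ⟨v, ?_⟩
  rcases Set.eq_empty_or_nonempty (N1 A v) with h0 | hne
  · rw [h0]; simp
  · obtain ⟨u, hu, hq⟩ := exists_quarter A h hK v hne
    have h1 := ncard_le A h v u hu
    have h2 := hv u
    omega

end Vale.Agent.P038
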